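import Vale.Agent.P159.H556.Final2

open Filter Topology Vale.Agent.P159

namespace Vale.Agent.Results.P159.GrowthExponents

/-- The square-lattice XY model: lower bounds for the correlation length below the critical point,
with larger exponents than before, growth of the two-point function with the inverse temperature,
and lower bounds with an exponent below one for the two-point function above the critical point. -/
theorem result :
    -- the correlation length below the critical point
    (∀ ν : ℝ, ν < 1 / (2 - 1 / (Real.pi * helicity bCrit)) →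
      ∃ c δ : ℝ, 0 < c ∧ 0 < δ ∧ ∀ b : ℝ, bCrit - δ < b → b < bCrit →
        c * (bCrit - b) ^ (-ν) ≤ corrLength b) ∧
    (∃ c δ : ℝ, 0 < c ∧ 0 < δ ∧ ∀ b : ℝ, bCrit - δ < b → b < bCrit →
        c * (bCrit - b) ^ (-(1 / (2 - 2 / (7 * Real.pi)))) ≤ corrLength b) ∧
    (1 / (2 - 1 / (2 * Real.pi * helicity bCrit)) < 1 / (2 - 1 / (Real.pi * helicity bCrit)) ∧
      1 / (2 - 2 / (7 * Real.pi)) < 1 / (2 - 1 / (Real.pi * helicity bCrit))) ∧
    -- growth of the correlations with the inverse temperature
    (∀ b b' : ℝ, 0 < b → b ≤ b' → ∀ x : ℤ × ℤ, x ≠ 0 →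
      corrInf b x * ((8 * b * ((max |x.1| |x.2| : ℤ) : ℝ) + 1) / (8 * b + 1)) ^
        ((1 / b - 1 / b') / 8) ≤ corrInf b' x) ∧
    -- above the critical point the two-point function decays with an exponent below one
    (∀ b : ℝ, bCrit < b → 0 < (1 / bCrit - 1 / b) / 8 ∧ ∃ c : ℝ, 0 < c ∧ ∀ n : ℕ, 1 ≤ n →
      c * (n : ℝ) ^ (-1 + (1 / bCrit - 1 / b) / 8) ≤ corrInf b ((n : ℤ), 0)) :=
  Vale.Agent.P159.H556.final2

end Vale.Agent.Results.P159.GrowthExponents
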