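import Vale.Agent.P159.H950.G5

open Filter Topology Vale.Agent.P159

namespace Vale.Agent.Results.P159.MacroscopicGaussian

/-- The macroscopic limit of the square-lattice XY model is Gaussian, with stiffness equal to the
helicity modulus, at every inverse temperature. -/
theorem result (b : ℝ) (hb : 0 < b) :
    -- boundary spins given by an arbitrary continuously differentiable function `g`
    (∀ g p q : ℝ → ℝ → ℝ, IsC1 g p q →
      Tendsto (fun N => bdryZ N b g / bdryZ N b 0) atTop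
        (𝓝 (Real.exp (-(helicity b / 2 * dirichletE g))))) ∧
    -- gauge fields approximating an arbitrary continuous field `(P, Q)`
    (∀ P Q : ℝ → ℝ → ℝ, Continuous (fun z : ℝ × ℝ => P z.1 z.2) →
      Continuous (fun z : ℝ × ℝ => Q z.1 z.2) → ∀ α β : ℕ → ℤ × ℤ → ℝ,
      (∀ ε : ℝ, 0 < ε → ∀ᶠ N : ℕ in atTop, ∀ v : ℤ × ℤ, 0 ≤ v.1 → v.1 ≤ N → 0 ≤ v.2 → v.2 ≤ N →
        |N * α N v - P (v.1 / N) (v.2 / N)| ≤ ε ∧ |N * β N v - Q (v.1 / N) (v.2 / N)| ≤ ε) →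
      Tendsto (fun N => gaugeZ N b (α N) (β N) / gaugeZ N b 0 0) atTop
        (𝓝 (Real.exp (-(helicity b / 2 * gaugeDist P Q))))) ∧
    -- divergence free fields: the squared distance is the squared norm, and the convergence
    -- extends to complex gauge fields
    (∀ P Q f : ℝ → ℝ → ℝ, Continuous (fun z : ℝ × ℝ => P z.1 z.2) →
      Continuous (fun z : ℝ × ℝ => Q z.1 z.2) → Continuous (fun z : ℝ × ℝ => f z.1 z.2) →
      (∀ x y : ℝ, HasDerivAt (fun x => P x y) (f x y) x) →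
      (∀ x y : ℝ, HasDerivAt (fun y => Q x y) (-f x y) y) →
      gaugeDist P Q = sqNorm P Q ∧ ∀ α β : ℕ → ℤ × ℤ → ℝ,
      (∀ ε : ℝ, 0 < ε → ∀ᶠ N : ℕ in atTop, ∀ v : ℤ × ℤ, 0 ≤ v.1 → v.1 ≤ N → 0 ≤ v.2 → v.2 ≤ N →
        |N * α N v - P (v.1 / N) (v.2 / N)| ≤ ε ∧ |N * β N v - Q (v.1 / N) (v.2 / N)| ≤ ε) →
      ∀ w : ℂ, Tendsto (fun N => gaugeZC N b (α N) (β N) w / gaugeZC N b (α N) (β N) 0) atTop
        (𝓝 (Complex.exp (-(w ^ 2 * (helicity b / 2 * sqNorm P Q : ℝ)))))) :=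
  ⟨fun _ _ _ hg => H950.bdry_lim_all hb hg,
    fun _ _ hP hQ _ _ h => H950.gauge_lim_all hb hP hQ h,
    fun _ _ f hP hQ hf dP dQ => ⟨H950.gd_df ⟨hP, hQ, f, hf, dP, dQ⟩,
      fun _ _ h => H950.gauge_lim_C hb hP hQ hf dP dQ h⟩⟩

end Vale.Agent.Results.P159.MacroscopicGaussian
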