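import Vale.Agent.P159.H170.Final

open Filter Topology Vale.Agent.P159

namespace Vale.Agent.Results.P159.MasslessPhase

/-- The square-lattice XY model has a massless phase, which is `[bCrit, ∞)` with
`2 / π < bCrit ≤ 7 / 2`; unconditional form of the jump of the helicity modulus at the critical
point, of its strict growth above it, of the power law upper bound at the critical point, and of
the lower bound for the correlation length below it. -/
theorem result :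
    -- the massless phase is `[bCrit, ∞)`, with `2 / π < bCrit ≤ 7 / 2`
    (2 / Real.pi < bCrit ∧ bCrit ≤ 7 / 2 ∧ ∀ b : ℝ, 0 < b → (mass b = 0 ↔ bCrit ≤ b)) ∧
    -- the helicity modulus vanishes below `bCrit`
    (∀ b : ℝ, 0 < b → b < bCrit → 0 < mass b ∧ helicity b = 0 ∧
      ∃ C : ℝ, ∀ l : ℕ, 1 ≤ l → stiff l b ≤ C / l) ∧
    -- it jumps at `bCrit` and then increases strictly
    (2 / Real.pi ≤ helicity bCrit ∧ Tendsto helicity (𝓝[>] bCrit) (𝓝 (helicity bCrit)) ∧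
      StrictMonoOn helicity (Set.Ici bCrit) ∧
      ∀ b : ℝ, bCrit ≤ b → (∀ l : ℕ, 1 ≤ l → 2 / Real.pi ≤ stiff l b) ∧
        2 / Real.pi ≤ 1 / (Real.pi / 2 - 1 / bCrit + 1 / b) ∧
        1 / (Real.pi / 2 - 1 / bCrit + 1 / b) ≤ helicity b ∧
        ∀ b' : ℝ, b ≤ b' → 1 / helicity b' - 1 / b' ≤ 1 / helicity b - 1 / b) ∧
    -- decay at `bCrit`
    (∀ η : ℝ, η < 1 / (2 * Real.pi * helicity bCrit) → ∃ K : ℝ, ∀ x : ℤ × ℤ, x ≠ 0 →
      corrInf bCrit x ≤ K * ((max |x.1| |x.2| : ℤ) : ℝ) ^ (-η)) ∧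
    (∃ K : ℝ, ∀ x : ℤ × ℤ, x ≠ 0 →
      corrInf bCrit x ≤ K * ((max |x.1| |x.2| : ℤ) : ℝ) ^ (-(1 / (7 * Real.pi)))) ∧
    -- the correlation length
    (∀ ν : ℝ, ν < 1 / (2 - 1 / (2 * Real.pi * helicity bCrit)) →
      ∃ c δ : ℝ, 0 < c ∧ 0 < δ ∧ ∀ b : ℝ, bCrit - δ < b → b < bCrit →
        c * (bCrit - b) ^ (-ν) ≤ corrLength b) ∧
    (∃ c δ : ℝ, 0 < c ∧ 0 < δ ∧ ∀ b : ℝ, bCrit - δ < b → b < bCrit →
        c * (bCrit - b) ^ (-(1 / (2 - 1 / (7 * Real.pi)))) ≤ corrLength b) :=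
  H170.final

end Vale.Agent.Results.P159.MasslessPhase
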